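import Mathlib

namespace Vale.Agent.Results.P131.PointSpectrumReduction

open ContinuousLinearMap

/-- Let `T` be a nonscalar bounded operator on a complex Hilbert space `H` (no separability or
dimension hypothesis is needed).  If for some complex `c` the operator `T - c` is not injective
(that is, `c` is an eigenvalue of `T`), or the range of `T - c` is not dense in `H`
(equivalently, the conjugate of `c` is an eigenvalue of the adjoint of `T`), then `T` has a
nontrivial closed hyperinvariant subspace: a closed subspace `M`, different from `0` and from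
`H`, with `A M ⊆ M` for every bounded operator `A` commuting with `T`. -/
theorem result {H : Type*} [NormedAddCommGroup H] [InnerProductSpace ℂ H] [CompleteSpace H]
    (T : H →L[ℂ] H) (hT : ∀ c : ℂ, T ≠ c • (1 : H →L[ℂ] H)) (c : ℂ)
    (h : (∃ v : H, v ≠ 0 ∧ T v = c • v) ∨
      ¬ Dense (Set.range (fun x : H => T x - c • x))) :
    ∃ M : Submodule ℂ H, IsClosed (M : Set H) ∧ M ≠ ⊥ ∧ M ≠ ⊤ ∧
      ∀ A : H →L[ℂ] H, A * T = T * A → ∀ x ∈ M, A x ∈ M := by
  set S : H →L[ℂ] H := T - c • (1 : H →L[ℂ] H) with hS
  have hSapp : ∀ x, S x = T x - c • x := fun x => by simp [hS]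
  have hSne : S ≠ 0 := by
    intro h0
    apply hT c
    have : T - c • (1 : H →L[ℂ] H) = 0 := h0
    exact sub_eq_zero.mp this
  have hcomm : ∀ A : H →L[ℂ] H, A * T = T * A → ∀ x, A (S x) = S (A x) := by
    intro A hA x
    have h1 : A (T x) = T (A x) := by
      have := congrArg (fun B : H →L[ℂ] H => B x) hA
      simpa using this
    rw [hSapp, hSapp, map_sub, map_smul, h1]
  rcases h with ⟨v, hv, hTv⟩ | hnd
  · -- the eigenspace
    refine ⟨LinearMap.ker S.toLinearMap, ?_, ?_, ?_, ?_⟩
    · exact S.isClosed_ker
    · intro hbot
      have hvmem : v ∈ LinearMap.ker S.toLinearMap := by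
        rw [LinearMap.mem_ker]
        show S v = 0
        rw [hSapp, hTv, sub_self]
      rw [hbot] at hvmem
      exact hv ((Submodule.mem_bot ℂ).mp hvmem)
    · intro htop
      apply hSne
      ext x
      have : x ∈ LinearMap.ker S.toLinearMap := by rw [htop]; exact Submodule.mem_top
      simpa using this
    · intro A hA x hx
      rw [LinearMap.mem_ker] at hx ⊢
      show S (A x) = 0
      have hx' : S x = 0 := hx
      rw [← hcomm A hA x, hx', map_zero]
  · -- the closure of the range
    refine ⟨(LinearMap.range S.toLinearMap).topologicalClosure, ?_, ?_, ?_, ?_⟩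
    · exact Submodule.isClosed_topologicalClosure _
    · intro hbot
      apply hSne
      ext x
      have hmem : S x ∈ (LinearMap.range S.toLinearMap).topologicalClosure :=
        Submodule.le_topologicalClosure _ ⟨x, rfl⟩
      rw [hbot] at hmem
      simpa using (Submodule.mem_bot ℂ).mp hmem
    · intro htop
      apply hnd
      have hrange : Set.range (fun x : H => T x - c • x)
          = ((LinearMap.range S.toLinearMap : Submodule ℂ H) : Set H) := by
        ext y
        constructor
        · rintro ⟨x, rfl⟩
          exact ⟨x, hSapp x⟩
        · rintro ⟨x, rfl⟩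
          exact ⟨x, (hSapp x).symm⟩
      rw [hrange]
      intro y
      have : y ∈ (LinearMap.range S.toLinearMap).topologicalClosure := by
        rw [htop]; exact Submodule.mem_top
      exact this
    · intro A hA x hx
      have hmaps : Set.MapsTo A ((LinearMap.range S.toLinearMap : Submodule ℂ H) : Set H)
          ((LinearMap.range S.toLinearMap : Submodule ℂ H) : Set H) := by
        rintro _ ⟨y, rfl⟩
        exact ⟨A y, (hcomm A hA y).symm⟩
      have := hmaps.closure A.continuous
      exact this hx

end Vale.Agent.Results.P131.PointSpectrumReduction
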